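import Vale.Agent.P125.V2.James_5

set_option linter.unusedSectionVars false
set_option linter.unusedVariables false

/-!
# P125: the own-measure inequality for James' quadratic variation norm
`∑_k (sum of x over [p_k, p_(k+1)))^2 ≤ 8 * ∑_k |x_k| * |x_0 + ... + x_k|`.
-/

namespace Vale.Agent.P125.V2

open scoped BigOperators

lemma sq_sub_le (a b : ℝ) : (a - b) ^ 2 ≤ 2 * |a * abs a - b * abs b| := by
  have h1 := le_abs_self (a * abs a - b * abs b)
  have h2 := neg_abs_le (a * abs a - b * abs b)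
  rcases le_total 0 a with ha | ha <;> rcases le_total 0 b with hb | hb
  · rw [abs_of_nonneg ha, abs_of_nonneg hb] at h1 h2 ⊢
    rcases le_total a b with hab | hab
    · nlinarith [mul_nonneg (sub_nonneg.2 hab) (add_nonneg hb ha), mul_nonneg (sub_nonneg.2 hab) ha]
    · nlinarith [mul_nonneg (sub_nonneg.2 hab) (add_nonneg hb ha), mul_nonneg (sub_nonneg.2 hab) hb]
  · rw [abs_of_nonneg ha, abs_of_nonpos hb] at h1 h2 ⊢
    nlinarith [sq_nonneg (a + b)]
  · rw [abs_of_nonpos ha, abs_of_nonneg hb] at h1 h2 ⊢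
    nlinarith [sq_nonneg (a + b)]
  · rw [abs_of_nonpos ha, abs_of_nonpos hb] at h1 h2 ⊢
    rcases le_total a b with hab | hab
    · nlinarith [mul_nonneg (sub_nonneg.2 hab) (neg_nonneg.2 ha), mul_nonneg (sub_nonneg.2 hab) (neg_nonneg.2 hb)]
    · nlinarith [mul_nonneg (sub_nonneg.2 hab) (neg_nonneg.2 ha), mul_nonneg (sub_nonneg.2 hab) (neg_nonneg.2 hb)]

lemma step_le (g g' : ℝ) :
    |g * abs g - g' * abs g'| ≤ 4 * (|g - g'| * |g|) - (g ^ 2 - g' ^ 2) := by
  have s0 := abs_nonneg (g - g')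
  have s1 := le_abs_self (g - g')
  have s2 := neg_abs_le (g - g')
  obtain ⟨s, hs⟩ : ∃ s : ℝ, s = |g - g'| := ⟨_, rfl⟩
  rw [← hs] at s0 s1 s2 ⊢
  rcases le_total 0 g with ha | ha <;> rcases le_total 0 g' with hb | hb
  · rw [abs_of_nonneg ha, abs_of_nonneg hb, abs_le]
    constructor
    · nlinarith [mul_nonneg s0 ha]
    · rcases le_total g g' with hab | hab
      · nlinarith [mul_nonneg s0 ha, mul_nonneg (sub_nonneg.2 hab) (add_nonneg ha hb)]
      · nlinarith [mul_nonneg s0 ha, mul_nonneg (sub_nonneg.2 hab) ha, mul_nonneg (sub_nonneg.2 hab) hb,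
          mul_nonneg (sub_nonneg.2 s1) ha]
  · rw [abs_of_nonneg ha, abs_of_nonpos hb, abs_le]
    constructor
    · nlinarith [mul_nonneg s0 ha, sq_nonneg g']
    · nlinarith [mul_nonneg (sub_nonneg.2 s1) ha, mul_nonneg ha (neg_nonneg.2 hb)]
  · rw [abs_of_nonpos ha, abs_of_nonneg hb, abs_le]
    constructor
    · have s3 : g' - g ≤ s := by linarith
      nlinarith [mul_nonneg (sub_nonneg.2 s3) (neg_nonneg.2 ha), mul_nonneg (neg_nonneg.2 ha) hb]
    · nlinarith [mul_nonneg s0 (neg_nonneg.2 ha), sq_nonneg g']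
  · rw [abs_of_nonpos ha, abs_of_nonpos hb, abs_le]
    have s3 : g' - g ≤ s := by linarith
    constructor
    · rcases le_total g g' with hab | hab
      · nlinarith [mul_nonneg s0 (neg_nonneg.2 ha), mul_nonneg (sub_nonneg.2 hab) (neg_nonneg.2 ha),
          mul_nonneg (sub_nonneg.2 hab) (neg_nonneg.2 hb), mul_nonneg (sub_nonneg.2 s3) (neg_nonneg.2 ha)]
      · nlinarith [mul_nonneg s0 (neg_nonneg.2 ha), mul_nonneg (sub_nonneg.2 hab) (neg_nonneg.2 ha),
          mul_nonneg (sub_nonneg.2 hab) (neg_nonneg.2 hb)]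
    · nlinarith [mul_nonneg s0 (neg_nonneg.2 ha)]

/-- `g |g|` along the partial sums -/
noncomputable def fg {n : ℕ} (x : Fin n → ℝ) (q : ℕ) : ℝ := gs x q * abs (gs x q)

/-- total variation of `fg` up to `q` -/
noncomputable def tv {n : ℕ} (x : Fin n → ℝ) (q : ℕ) : ℝ :=
  ∑ r ∈ Finset.range q, |fg x (r + 1) - fg x r|

lemma tv_succ {n : ℕ} (x : Fin n → ℝ) (q : ℕ) :
    tv x (q + 1) = tv x q + |fg x (q + 1) - fg x q| := by
  unfold tv
  rw [Finset.sum_range_succ]

lemma tv_nonneg {n : ℕ} (x : Fin n → ℝ) (q : ℕ) : 0 ≤ tv x q :=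
  Finset.sum_nonneg (fun _ _ => abs_nonneg _)

lemma abs_fg_sub_le {n : ℕ} (x : Fin n → ℝ) (a b : ℕ) (h : a ≤ b) :
    |fg x b - fg x a| ≤ tv x b - tv x a := by
  induction b, h using Nat.le_induction with
  | base => simp
  | succ b hb ih =>
    rw [tv_succ]
    have h1 : fg x (b + 1) - fg x a = (fg x (b + 1) - fg x b) + (fg x b - fg x a) := by ring
    rw [h1]
    have h2 := abs_add_le (fg x (b + 1) - fg x b) (fg x b - fg x a)
    linarith

lemma gs_zero {n : ℕ} (x : Fin n → ℝ) : gs x 0 = 0 := by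
  unfold gs
  simp

lemma gs_step_ge {n : ℕ} (x : Fin n → ℝ) (r : ℕ) (hr : n ≤ r) : gs x (r + 1) = gs x r := by
  unfold gs
  refine Finset.sum_congr rfl ?_
  intro l _
  have hl := l.isLt
  rw [if_pos (by omega), if_pos (by omega)]

lemma gs_step_fin {n : ℕ} (x : Fin n → ℝ) (k : Fin n) :
    gs x (k.val + 1) - gs x k.val = x k := by
  rw [← blk_eq x (Nat.le_succ _)]
  unfold blk
  rw [Finset.sum_eq_single k]
  · rw [if_pos ⟨le_rfl, Nat.lt_succ_self _⟩]
  · intro l _ hl
    have : ¬ (k.val ≤ l.val ∧ l.val < k.val + 1) := by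
      intro hh
      apply hl
      apply Fin.ext
      omega
    rw [if_neg this]
  · intro hk
    exact absurd (Finset.mem_univ k) hk

lemma gs_incl {n : ℕ} (x : Fin n → ℝ) (k : Fin n) :
    gs x (k.val + 1) = ∑ i, if i ≤ k then x i else 0 := by
  unfold gs
  refine Finset.sum_congr rfl ?_
  intro l _
  by_cases h : l ≤ k
  · rw [if_pos h, if_pos (Nat.lt_succ_of_le h)]
  · have : ¬ l.val < k.val + 1 := fun hh => h (Nat.le_of_lt_succ hh)
    rw [if_neg h, if_neg this]

lemma tv_le {n : ℕ} (x : Fin n → ℝ) (N : ℕ) :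
    tv x N ≤ 4 * ∑ k : Fin n, |x k| * |∑ i, if i ≤ k then x i else 0| := by
  have h1 : tv x N ≤ ∑ r ∈ Finset.range N,
      (4 * (|gs x (r + 1) - gs x r| * |gs x (r + 1)|) - (gs x (r + 1) ^ 2 - gs x r ^ 2)) :=
    Finset.sum_le_sum (fun r _ => step_le (gs x (r + 1)) (gs x r))
  rw [Finset.sum_sub_distrib, Finset.sum_range_sub (fun r => gs x r ^ 2) N, gs_zero,
    ← Finset.mul_sum] at h1
  have h2 : ∑ r ∈ Finset.range N, |gs x (r + 1) - gs x r| * |gs x (r + 1)| ≤
      ∑ r ∈ Finset.range n, |gs x (r + 1) - gs x r| * |gs x (r + 1)| := by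
    rcases le_total N n with h | h
    · exact Finset.sum_le_sum_of_subset_of_nonneg (Finset.range_mono h)
        (fun _ _ _ => mul_nonneg (abs_nonneg _) (abs_nonneg _))
    · refine le_of_eq (Finset.sum_subset (Finset.range_mono h) ?_).symm
      intro r _ hr
      have hr' : n ≤ r := by
        rw [Finset.mem_range] at hr
        omega
      rw [gs_step_ge x r hr', sub_self, abs_zero, zero_mul]
  have h3 : ∑ r ∈ Finset.range n, |gs x (r + 1) - gs x r| * |gs x (r + 1)| =
      ∑ k : Fin n, |x k| * |∑ i, if i ≤ k then x i else 0| := by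
    rw [← Fin.sum_univ_eq_sum_range (fun r => |gs x (r + 1) - gs x r| * |gs x (r + 1)|) n]
    refine Finset.sum_congr rfl ?_
    intro k _
    rw [gs_step_fin, gs_incl]
  have h4 := sq_nonneg (gs x N)
  rw [h3] at h2
  nlinarith

/-- own-measure inequality for the quadratic variation -/
theorem own_v2 {n : ℕ} (x : Fin n → ℝ) (p : ℕ → ℕ) (hp : Monotone p) (m : ℕ) :
    ∑ k ∈ Finset.range m, blk x (p k) (p (k + 1)) ^ 2 ≤
      8 * ∑ k : Fin n, |x k| * |∑ i, if i ≤ k then x i else 0| := by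
  have h1 : ∀ k ∈ Finset.range m, blk x (p k) (p (k + 1)) ^ 2 ≤
      2 * (tv x (p (k + 1)) - tv x (p k)) := by
    intro k _
    have hk : p k ≤ p (k + 1) := hp (Nat.le_succ k)
    rw [blk_eq x hk]
    have a1 := sq_sub_le (gs x (p (k + 1))) (gs x (p k))
    have a2 := abs_fg_sub_le x _ _ hk
    unfold fg at a2
    linarith
  refine le_trans (Finset.sum_le_sum h1) ?_
  rw [← Finset.mul_sum, Finset.sum_range_sub (fun k => tv x (p k)) m]
  have h2 := tv_le x (p m)
  have h3 := tv_nonneg x (p 0)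
  linarith

end Vale.Agent.P125.V2
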