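import Vale.Agent.P125.P58.Top
import Vale.Agent.P125.V2.Own_5

set_option linter.unusedSectionVars false
set_option linter.unusedVariables false

/-!
# P125: the summing operators into James' space have the rate `t^(11/6)`

Same proof as `plain58` (helper78's proof, helper58's chain `P58/`); only Step 1 changes: the
own-measure inequality `own_v2` for the quadratic variation replaces the one for the maximum.
The middle of the proof below repeats `Two_77` and `Glue_77` (helper77).
-/

namespace Vale.Agent.P125.V2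

open scoped BigOperators
open Vale.Agent.P125.Dich Vale.Agent.P125.Poly

theorem ownsum_bound (S : Type) [Fintype S] [DecidableEq S] (μ : S → ℝ) (P : Matrix S S ℝ)
    (hc : IsChain μ P) (n : ℕ) (f : S → Fin n → ℝ) (t : ℕ) (ht : 1 ≤ t) :
    ∑ k, ∑ x, ∑ y, μ x * (P ^ t) x y * (|f y k - f x k| * |F f k y - F f k x|) ≤
      12 * (t : ℝ) ^ (11 / 6 : ℝ) * U μ P f := by
  have lib : StLib := stLib_75
  have own : StOwn := stOwn_33
  have ownT : StOwnT := stOwnT_27 own
  have h2 : StTel := stTel_59
  have small : StSmall := stSmall_93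
  have h3 : StCol := stCol_59 small
  have triv1 : StTriv1 := stTriv1_69 small
  have rem : StRem := stRem_92 small triv1
  have triv2 : StTriv2 := stTriv2_85 small
  have sq : StSqrt := stSqrt_89
  have hblk : StBlk := stBlk_89 lib small triv2 sq
  have dual : StDual := stDual_67
  have down : StDown := stDown_73 ownT small
  have back : StBack := stBack_88 small
  have en : StEn := stEn_27 small
  have bb : StBB := stBB_38 small
  have xi : StXi := stXi_87 small en bb
  have r : StR := stR_14 small dual down back xi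
  have hQ : StQ := stQ_64 small rem hblk r
  have L := lib S μ P hc
  have s2 : ∀ k : Fin n,
      ∑ x, ∑ y, μ x * (P ^ t) x y * (|f y k - f x k| * |F f k y - F f k x|) ≤
      ∑ r ∈ Finset.range t, (Qk μ P f (t - 1 - r) k +
        (∑ a, ∑ b, μ a * P a b * (w f a b k * ell f a b)) + Qk μ P f r k) := by
    intro k
    refine (h2 S μ P hc L (fun x => f x k) (fun x y => |F f k y - F f k x|)
      (fun x y => abs_nonneg _) t).trans ?_
    exact Finset.sum_le_sum fun r _ => h3 S μ P hc L n f k r (t - 1 - r)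
  have hUe : ∑ k, (∑ a, ∑ b, μ a * P a b * (w f a b k * ell f a b)) = U μ P f := by
    unfold U
    rw [Finset.sum_comm]
    refine Finset.sum_congr rfl fun a _ => ?_
    rw [Finset.sum_comm]
    refine Finset.sum_congr rfl fun b _ => ?_
    rw [← Finset.mul_sum, ← Finset.sum_mul]
    have : ∑ k, w f a b k = ell f a b := rfl
    rw [this]; ring
  have s3 : ∑ k, ∑ r ∈ Finset.range t, (Qk μ P f (t - 1 - r) k +
        (∑ a, ∑ b, μ a * P a b * (w f a b k * ell f a b)) + Qk μ P f r k) =
      t * U μ P f + ∑ r ∈ Finset.range t, (Qsum μ P f (t - 1 - r) + Qsum μ P f r) := by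
    rw [Finset.sum_comm]
    have : ∀ r ∈ Finset.range t, ∑ k, (Qk μ P f (t - 1 - r) k +
        (∑ a, ∑ b, μ a * P a b * (w f a b k * ell f a b)) + Qk μ P f r k) =
        U μ P f + (Qsum μ P f (t - 1 - r) + Qsum μ P f r) := by
      intro r _
      rw [Finset.sum_add_distrib, Finset.sum_add_distrib, hUe]
      unfold Qsum
      ring
    rw [Finset.sum_congr rfl this, Finset.sum_add_distrib, Finset.sum_const, Finset.card_range,
      nsmul_eq_mul]
  have s4 := Finset.sum_le_sum (s := Finset.univ) fun k _ => s2 k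
  rw [s3] at s4
  obtain ⟨-, -, -, -, -, -, hU, -⟩ := small S μ P hc L n f
  obtain ⟨τ, hτ, hsc⟩ := scalar_77 t ht
  have hq := hQ S μ P hc L n f τ
  obtain ⟨K, hK⟩ : ∃ K : ℝ, K = Real.sqrt (t * τ) + τ + (3 / 2) * t * (τ : ℝ) ^ (-(1 / 4) : ℝ) :=
    ⟨_, rfl⟩
  have hτ0 : (0 : ℝ) ≤ (τ : ℝ) ^ (-(1 / 4) : ℝ) := Real.rpow_nonneg (by positivity) _
  have hb : ∀ r : ℕ, r ≤ t → Qsum μ P f r ≤ K * U μ P f := by
    intro r hr
    refine (hq r hτ).trans ?_
    refine mul_le_mul_of_nonneg_right ?_ hU
    rw [hK]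
    have hr' : (r : ℝ) ≤ t := by exact_mod_cast hr
    have h1 : Real.sqrt (r * τ) ≤ Real.sqrt (t * τ) :=
      Real.sqrt_le_sqrt (mul_le_mul_of_nonneg_right hr' (by positivity))
    have h3 : (3 / 2) * (r : ℝ) * (τ : ℝ) ^ (-(1 / 4) : ℝ) ≤
        (3 / 2) * (t : ℝ) * (τ : ℝ) ^ (-(1 / 4) : ℝ) :=
      mul_le_mul_of_nonneg_right (by linarith) hτ0
    linarith
  have hsum : ∑ r ∈ Finset.range t, (Qsum μ P f (t - 1 - r) + Qsum μ P f r) ≤
      ∑ r ∈ Finset.range t, (2 * (K * U μ P f)) := by
    refine Finset.sum_le_sum fun r hr => ?_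
    have hr' := Finset.mem_range.mp hr
    have := hb (t - 1 - r) (by omega)
    have := hb r (by omega)
    linarith
  rw [Finset.sum_const, Finset.card_range, nsmul_eq_mul] at hsum
  rw [← hK] at hsc
  have := mul_le_mul_of_nonneg_right hsc hU
  nlinarith [s4, hsum, this]

/-- The summing operators, viewed as operators from `l_1^n` into James' space (quadratic variation
norm of the sums `v_1 + ... + v_k`), have the polynomial rate `t^(11/6)`, uniformly in `n`.  The
consecutive intervals `[p k, p (k+1))`, `k < m`, may depend on the two end points of the path, so the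
left side is the expectation of the square of the James norm. -/
theorem james_rate11_5 : ∀ t : ℕ, 1 ≤ t →
    ∀ (n : ℕ) (S : Type) [Fintype S] [DecidableEq S] (μ : S → ℝ) (P : Matrix S S ℝ),
      (∀ i, 0 ≤ μ i) → ∑ i, μ i = 1 → (∀ i j, 0 ≤ P i j) → (∀ i, ∑ j, P i j = 1) →
      (∀ i j, μ i * P i j = μ j * P j i) → ∀ f : S → Fin n → ℝ,
      ∀ (m : S → S → ℕ) (p : S → S → ℕ → ℕ), (∀ i j, Monotone (p i j)) →
        ∑ i, ∑ j, μ i * (P ^ t) i j *
            (∑ k ∈ Finset.range (m i j),
              (∑ l : Fin n, if p i j k ≤ l.val ∧ l.val < p i j (k + 1)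
                then f j l - f i l else 0) ^ 2) ≤
          96 * (t : ℝ) ^ (11 / 6 : ℝ) *
            ∑ i, ∑ j, μ i * P i j * (∑ l : Fin n, |f j l - f i l|) ^ 2 := by
  intro t ht n S _ _ μ P h0 h1 h2 h3 h4 f m p hp
  have hA := ownsum_bound S μ P ⟨h0, h1, h2, h3, h4⟩ n f t ht
  have hF : ∀ (k : Fin n) (x y : S),
      (∑ i, if i ≤ k then (f y i - f x i) else 0) = F f k y - F f k x := by
    intro k x y
    unfold F
    rw [← Finset.sum_sub_distrib]
    refine Finset.sum_congr rfl fun i _ => ?_
    split_ifs <;> simp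
  have hw : ∀ i j, 0 ≤ μ i * (P ^ t) i j := fun i j => mul_nonneg (h0 i) (mat_pow_nonneg P h2 t i j)
  have hpt : ∀ x y, μ x * (P ^ t) x y *
      (∑ k ∈ Finset.range (m x y),
        (∑ l : Fin n, if p x y k ≤ l.val ∧ l.val < p x y (k + 1) then f y l - f x l else 0) ^ 2) ≤
      μ x * (P ^ t) x y * (8 * ∑ k, |f y k - f x k| * |F f k y - F f k x|) := by
    intro x y
    have q1 := own_v2 (fun l => f y l - f x l) (p x y) (hp x y) (m x y)
    simp only [hF] at q1
    unfold blk at q1
    exact mul_le_mul_of_nonneg_left q1 (hw x y)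
  have e : 8 * ∑ k, ∑ x, ∑ y, μ x * (P ^ t) x y * (|f y k - f x k| * |F f k y - F f k x|) =
      ∑ x, ∑ y, μ x * (P ^ t) x y * (8 * ∑ k, |f y k - f x k| * |F f k y - F f k x|) := by
    rw [Finset.sum_comm, Finset.mul_sum]
    refine Finset.sum_congr rfl fun x _ => ?_
    rw [Finset.sum_comm, Finset.mul_sum]
    refine Finset.sum_congr rfl fun y _ => ?_
    rw [← Finset.mul_sum]
    ring
  have hsum := Finset.sum_le_sum (fun x (_ : x ∈ Finset.univ) =>
    Finset.sum_le_sum (fun y (_ : y ∈ Finset.univ) => hpt x y))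
  refine le_trans hsum ?_
  rw [← e]
  have hU : U μ P f = ∑ i, ∑ j, μ i * P i j * (∑ l : Fin n, |f j l - f i l|) ^ 2 := rfl
  rw [← hU]
  linarith

end Vale.Agent.P125.V2
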