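import Vale.Agent.P125.A32.Final32

/-!
# P125: the formal identity from `ℓ_1^n` to the James (quadratic variation) norm is sub-ballistic
-/

namespace Vale.Agent.P125.V24

open scoped BigOperators
open Vale.Agent.P125.Dich Vale.Agent.P125.A32

variable {n : ℕ}

/-- the sum of the coordinates with index in `[a, b)` -/
def blk (v : Fin n → ℝ) (a b : ℕ) : ℝ :=
  ∑ l : Fin n, if a ≤ l.val ∧ l.val < b then v l else 0

lemma blk_eq (v : Fin n → ℝ) {a b : ℕ} (h : a ≤ b) : blk v a b = preN v b - preN v a := by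
  unfold blk preN
  rw [← Finset.sum_sub_distrib]
  refine Finset.sum_congr rfl fun l _ => ?_
  by_cases h1 : l.val < a
  · have h2 : l.val < b := lt_of_lt_of_le h1 h
    have h3 : ¬ (a ≤ l.val ∧ l.val < b) := fun hh => absurd hh.1 (not_le.2 h1)
    rw [if_neg h3, if_pos h1, if_pos h2, sub_self]
  · by_cases h2 : l.val < b
    · rw [if_pos ⟨not_lt.1 h1, h2⟩, if_pos h2, if_neg h1, sub_zero]
    · have h3 : ¬ (a ≤ l.val ∧ l.val < b) := fun hh => h2 hh.2
      rw [if_neg h3, if_neg h2, if_neg h1, sub_zero]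

lemma abs_preN_le (v : Fin n → ℝ) (j : ℕ) : |preN v j| ≤ NJ n v := by
  by_cases hj : j ≤ n
  · exact abs_pre_le_NJ v ⟨j, Nat.lt_succ_of_le hj⟩
  · have e : preN v j = preN v n := by
      unfold preN
      refine Finset.sum_congr rfl fun l _ => ?_
      have h1 : l.val < n := l.2
      have h2 : l.val < j := by omega
      rw [if_pos h1, if_pos h2]
    rw [e]
    exact abs_pre_le_NJ v ⟨n, Nat.lt_succ_self n⟩

lemma abs_blk_le (v : Fin n → ℝ) {a b : ℕ} (h : a ≤ b) : |blk v a b| ≤ 2 * NJ n v := by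
  rw [blk_eq v h]
  have h1 := abs_preN_le v a
  have h2 := abs_preN_le v b
  have h3 := abs_sub (preN v b) (preN v a)
  linarith

lemma abs_blk_le_blk_abs (v : Fin n → ℝ) (a b : ℕ) : |blk v a b| ≤ blk (fun l => |v l|) a b := by
  unfold blk
  refine (Finset.abs_sum_le_sum_abs _ _).trans (le_of_eq ?_)
  refine Finset.sum_congr rfl fun l _ => ?_
  split_ifs <;> simp

lemma preN_abs_nonneg (v : Fin n → ℝ) (j : ℕ) : 0 ≤ preN (fun l => |v l|) j := by
  unfold preN
  refine Finset.sum_nonneg fun l _ => ?_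
  split_ifs
  · exact abs_nonneg _
  · exact le_rfl

lemma preN_abs_le (v : Fin n → ℝ) (j : ℕ) : preN (fun l => |v l|) j ≤ N1 n v := by
  unfold preN N1
  refine Finset.sum_le_sum fun l _ => ?_
  split_ifs
  · exact le_rfl
  · exact abs_nonneg _

lemma sum_abs_blk_le (v : Fin n → ℝ) (c : ℕ → ℕ) (hc : Monotone c) (m : ℕ) :
    ∑ r ∈ Finset.range m, |blk v (c r) (c (r + 1))| ≤ N1 n v := by
  have h1 : ∑ r ∈ Finset.range m, |blk v (c r) (c (r + 1))|
      ≤ ∑ r ∈ Finset.range m,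
        (preN (fun l => |v l|) (c (r + 1)) - preN (fun l => |v l|) (c r)) := by
    refine Finset.sum_le_sum fun r _ => ?_
    rw [← blk_eq _ (hc (Nat.le_succ r))]
    exact abs_blk_le_blk_abs v _ _
  rw [Finset.sum_range_sub (fun r => preN (fun l => |v l|) (c r))] at h1
  have h2 := preN_abs_nonneg v (c 0)
  have h3 := preN_abs_le v (c m)
  linarith

/-- quadratic variation along a monotone sequence of cuts -/
lemma sum_sq_blk_le (v : Fin n → ℝ) (c : ℕ → ℕ) (hc : Monotone c) (m : ℕ) :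
    ∑ r ∈ Finset.range m, blk v (c r) (c (r + 1)) ^ 2 ≤ 2 * NJ n v * N1 n v := by
  have h1 : ∑ r ∈ Finset.range m, blk v (c r) (c (r + 1)) ^ 2
      ≤ ∑ r ∈ Finset.range m, 2 * NJ n v * |blk v (c r) (c (r + 1))| := by
    refine Finset.sum_le_sum fun r _ => ?_
    have h := abs_blk_le v (hc (Nat.le_succ r))
    rw [← sq_abs, pow_two]
    exact mul_le_mul_of_nonneg_right h (abs_nonneg _)
  rw [← Finset.mul_sum] at h1
  exact h1.trans (mul_le_mul_of_nonneg_left (sum_abs_blk_le v c hc m)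
    (mul_nonneg (by norm_num) (NJ_nonneg v)))

lemma sum_sq_blk_le' (v : Fin n → ℝ) (c : ℕ → ℕ) (hc : Monotone c) (m : ℕ) (d : ℝ) (hd : 0 < d) :
    ∑ r ∈ Finset.range m, blk v (c r) (c (r + 1)) ^ 2
      ≤ (1 / d) * NJ n v ^ 2 + d * N1 n v ^ 2 := by
  refine (sum_sq_blk_le v c hc m).trans ?_
  have h : 0 ≤ (1 / d) * (NJ n v - d * N1 n v) ^ 2 :=
    mul_nonneg (by positivity) (sq_nonneg _)
  have e : (1 / d) * (NJ n v - d * N1 n v) ^ 2
      = (1 / d) * NJ n v ^ 2 + d * N1 n v ^ 2 - 2 * NJ n v * N1 n v := by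
    field_simp
    ring
  linarith

/-- from the bound for the summing norm to the bound for the James norm -/
theorem james_of_RA {t : ℕ} {a : ℝ} (h : RA NJ N1 t a) (d : ℝ) (hd : 0 < d)
    (n : ℕ) (S : Type) [Fintype S] [DecidableEq S] (μ : S → ℝ) (P : Matrix S S ℝ)
    (hc : IsChain μ P) (f : S → Fin n → ℝ) (m : ℕ) (c : S → S → ℕ → ℕ)
    (hmono : ∀ i j, Monotone (c i j)) :
    ∑ i, ∑ j, μ i * (P ^ t) i j *
        ∑ r ∈ Finset.range m, blk (f j - f i) (c i j r) (c i j (r + 1)) ^ 2 ≤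
      (a / d + d) * (t : ℝ) ^ 2 * ∑ i, ∑ j, μ i * P i j * N1 n (f j - f i) ^ 2 := by
  have hpow : ∀ i j, 0 ≤ (P ^ t) i j := (isChain_pow hc t).2.2.1
  have h1 := h n S μ P hc f
  have h2 := fun_sub_sq_le (N1 n) N1_zero (fun x => N1_nonneg x) (fun x y => N1_add x y) μ P hc f t
  have h3 : ∑ i, ∑ j, μ i * (P ^ t) i j *
        ∑ r ∈ Finset.range m, blk (f j - f i) (c i j r) (c i j (r + 1)) ^ 2
      ≤ (1 / d) * ∑ i, ∑ j, μ i * (P ^ t) i j * NJ n (f j - f i) ^ 2
        + d * ∑ i, ∑ j, μ i * (P ^ t) i j * N1 n (f j - f i) ^ 2 := by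
    rw [Finset.mul_sum, Finset.mul_sum, ← Finset.sum_add_distrib]
    refine Finset.sum_le_sum fun i _ => ?_
    rw [Finset.mul_sum, Finset.mul_sum, ← Finset.sum_add_distrib]
    refine Finset.sum_le_sum fun j _ => ?_
    have hw : 0 ≤ μ i * (P ^ t) i j := mul_nonneg (hc.1 i) (hpow i j)
    have := mul_le_mul_of_nonneg_left (sum_sq_blk_le' (f j - f i) (c i j) (hmono i j) m d hd) hw
    refine this.trans (le_of_eq ?_)
    ring
  have h4 := mul_le_mul_of_nonneg_left h1 (by positivity : (0 : ℝ) ≤ 1 / d)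
  have h5 := mul_le_mul_of_nonneg_left h2 hd.le
  refine h3.trans ((add_le_add h4 h5).trans (le_of_eq ?_))
  field_simp

/-- **The identity `ℓ_1^n → J_n` (James norm) is uniformly sub-ballistic.** -/
theorem james_main : ∀ ε : ℝ, 0 < ε → ∃ t : ℕ, 1 ≤ t ∧
    ∀ (n : ℕ) (S : Type) [Fintype S] [DecidableEq S] (μ : S → ℝ) (P : Matrix S S ℝ),
      IsChain μ P → ∀ (f : S → Fin n → ℝ) (m : ℕ) (c : S → S → ℕ → ℕ),
      (∀ i j, Monotone (c i j)) →
      ∑ i, ∑ j, μ i * (P ^ t) i j *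
          ∑ r ∈ Finset.range m, blk (f j - f i) (c i j r) (c i j (r + 1)) ^ 2 ≤
        ε * (t : ℝ) ^ 2 * ∑ i, ∑ j, μ i * P i j * N1 n (f j - f i) ^ 2 := by
  intro ε hε
  obtain ⟨t, ht, h⟩ := alpha_main (ε ^ 2 / 4) (by positivity)
  refine ⟨t, ht, ?_⟩
  intro n S _ _ μ P hc f m c hmono
  have key := james_of_RA h (ε / 2) (by positivity) n S μ P hc f m c hmono
  have e : ε ^ 2 / 4 / (ε / 2) + ε / 2 = ε := by
    field_simp
    ring
  rwa [e] at key

end Vale.Agent.P125.V24
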