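import Vale.Agent.P125.V2.James24

namespace Vale.Agent.P125.V24

open scoped BigOperators

/-- The formal identity from `ℓ_1^n` to James' quadratic variation norm is sub-ballistic on
stationary reversible Markov chains, uniformly in `n`: for every `ε > 0` there is ONE time `t ≥ 1`
such that for ALL `n`, all stationary reversible finite Markov chains `(S, μ, P)`, all
`f : S → ℝ^n` and every choice, for each pair of states `(i, j)`, of consecutive blocks of
coordinates `[c_0, c_1), [c_1, c_2), ..., [c_{m-1}, c_m)` (`c = c i j` monotone),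
`E ∑_r (sum of the coordinates of f(Z_t) - f(Z_0) in the r-th block)^2
   ≤ ε * t^2 * E (‖f(Z_1) - f(Z_0)‖_1)^2`.
Since the blocks may depend on the pair of states, the left side is the expectation of the square of
the James norm `sup over block families of (∑_r (block sum)^2)^(1/2)`. With `m = 1`, `c_0 = 0` it
contains the bound for the summing norm `max_k |sum of the first k coordinates|`. -/
theorem james_plain : ∀ ε : ℝ, 0 < ε → ∃ t : ℕ, 1 ≤ t ∧
    ∀ (n : ℕ) (S : Type) [Fintype S] [DecidableEq S] (μ : S → ℝ) (P : Matrix S S ℝ),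
      (∀ i, 0 ≤ μ i) → ∑ i, μ i = 1 → (∀ i j, 0 ≤ P i j) → (∀ i, ∑ j, P i j = 1) →
      (∀ i j, μ i * P i j = μ j * P j i) →
      ∀ (f : S → Fin n → ℝ) (m : ℕ) (c : S → S → ℕ → ℕ), (∀ i j, Monotone (c i j)) →
        ∑ i, ∑ j, μ i * (P ^ t) i j *
            ∑ r ∈ Finset.range m,
              (∑ l : Fin n, if c i j r ≤ l.val ∧ l.val < c i j (r + 1)
                then f j l - f i l else 0) ^ 2 ≤
          ε * (t : ℝ) ^ 2 * ∑ i, ∑ j, μ i * P i j * (∑ l : Fin n, |f j l - f i l|) ^ 2 := by
  intro ε hε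
  obtain ⟨t, ht, h⟩ := james_main ε hε
  refine ⟨t, ht, ?_⟩
  intro n S _ _ μ P h0 h1 h2 h3 h4 f m c hmono
  exact h n S μ P ⟨h0, h1, h2, h3, h4⟩ f m c hmono

end Vale.Agent.P125.V24
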