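import Vale.Agent.P125.V2.James24
import Vale.Agent.P125.P32.Asm_32

namespace Vale.Agent.P125.V24

open scoped BigOperators
open Vale.Agent.P125.Dich Vale.Agent.P125.A32

/-- the polynomial rate in the shape `RA` -/
theorem RA_poly (t : ℕ) (ht : 1 ≤ t) : RA NJ N1 t (24 * (t : ℝ) ^ (-(1 / 6) : ℝ)) := by
  intro n S _ _ μ P hc f
  obtain ⟨h0, h1, h2, h3, h4⟩ := hc
  have key := Vale.Agent.P125.P32.stWrap_75 Vale.Agent.P125.P32.stCore_32 t ht n S μ P h0 h1 h2 h3 h4 f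
  have htp : (0 : ℝ) < (t : ℝ) := by exact_mod_cast ht
  have e : (t : ℝ) ^ (-(1 / 6) : ℝ) * (t : ℝ) ^ 2 = (t : ℝ) ^ (11 / 6 : ℝ) := by
    rw [← Real.rpow_natCast (t : ℝ) 2, ← Real.rpow_add htp]
    norm_num
  rw [mul_assoc 24, e]
  exact key

/-- **Power saving for the James norm.** -/
theorem james_poly : ∀ t : ℕ, 1 ≤ t →
    ∀ (n : ℕ) (S : Type) [Fintype S] [DecidableEq S] (μ : S → ℝ) (P : Matrix S S ℝ),
      (∀ i, 0 ≤ μ i) → ∑ i, μ i = 1 → (∀ i j, 0 ≤ P i j) → (∀ i, ∑ j, P i j = 1) →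
      (∀ i j, μ i * P i j = μ j * P j i) →
      ∀ (f : S → Fin n → ℝ) (m : ℕ) (c : S → S → ℕ → ℕ), (∀ i j, Monotone (c i j)) →
        ∑ i, ∑ j, μ i * (P ^ t) i j *
            ∑ r ∈ Finset.range m,
              (∑ l : Fin n, if c i j r ≤ l.val ∧ l.val < c i j (r + 1)
                then f j l - f i l else 0) ^ 2 ≤
          10 * (t : ℝ) ^ (23 / 12 : ℝ) *
            ∑ i, ∑ j, μ i * P i j * (∑ l : Fin n, |f j l - f i l|) ^ 2 := by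
  intro t ht n S _ _ μ P h0 h1 h2 h3 h4 f m c hmono
  have htp : (0 : ℝ) < (t : ℝ) := by exact_mod_cast ht
  have hd : (0 : ℝ) < 5 * (t : ℝ) ^ (-(1 / 12) : ℝ) := by positivity
  have key := james_of_RA (RA_poly t ht) _ hd n S μ P ⟨h0, h1, h2, h3, h4⟩ f m c hmono
  have hU : 0 ≤ ∑ i, ∑ j, μ i * P i j * N1 n (f j - f i) ^ 2 :=
    Finset.sum_nonneg fun i _ => Finset.sum_nonneg fun j _ =>
      mul_nonneg (mul_nonneg (h0 i) (h2 i j)) (sq_nonneg _)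
  have e1 : (t : ℝ) ^ (-(1 / 6) : ℝ) = (t : ℝ) ^ (-(1 / 12) : ℝ) * (t : ℝ) ^ (-(1 / 12) : ℝ) := by
    rw [← Real.rpow_add htp]
    norm_num
  have e2 : (t : ℝ) ^ (-(1 / 12) : ℝ) * (t : ℝ) ^ 2 = (t : ℝ) ^ (23 / 12 : ℝ) := by
    rw [← Real.rpow_natCast (t : ℝ) 2, ← Real.rpow_add htp]
    norm_num
  have hx : (0 : ℝ) < (t : ℝ) ^ (-(1 / 12) : ℝ) := by positivity
  have e3 : (24 * (t : ℝ) ^ (-(1 / 6) : ℝ) / (5 * (t : ℝ) ^ (-(1 / 12) : ℝ))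
      + 5 * (t : ℝ) ^ (-(1 / 12) : ℝ)) * (t : ℝ) ^ 2 = (49 / 5) * (t : ℝ) ^ (23 / 12 : ℝ) := by
    rw [e1, ← e2]
    field_simp
    ring
  rw [e3] at key
  refine le_trans key ?_
  have h10 : (49 / 5 : ℝ) * (t : ℝ) ^ (23 / 12 : ℝ) ≤ 10 * (t : ℝ) ^ (23 / 12 : ℝ) :=
    mul_le_mul_of_nonneg_right (by norm_num) (by positivity)
  exact mul_le_mul_of_nonneg_right h10 hU

end Vale.Agent.P125.V24
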