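import Vale.Agent.P125.P58.Top
import Vale.Agent.P125.TS.Triv

set_option linter.unusedSectionVars false
set_option linter.unusedVariables false

/-!
# P125: the summing operators, viewed as operators into James' space, have a polynomial rate

James' quadratic variation norm of the sequence of partial sums of `x : Fin n → ℝ` is
`sup over p_0 ≤ p_1 ≤ ... ≤ p_m of (∑_k (∑_{p_k ≤ l < p_{k+1}} x_l)^2)^(1/2)`.
It is at most `(2 * |x|_J * |x|_1)^(1/2)`, so the rate `t^(11/6)` of `plain58` and the trivial bound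
for the `l_1` norm give the rate `t^(23/12)`.
-/

namespace Vale.Agent.P125.V2

open Vale.Agent.P125.Dich
open scoped BigOperators

/-- sum of the coordinates with index below `q` -/
def gs {n : ℕ} (x : Fin n → ℝ) (q : ℕ) : ℝ := ∑ l : Fin n, if l.val < q then x l else 0

/-- sum of the coordinates with index in `[a, b)` -/
def blk {n : ℕ} (x : Fin n → ℝ) (a b : ℕ) : ℝ :=
  ∑ l : Fin n, if a ≤ l.val ∧ l.val < b then x l else 0

/-- the largest absolute value of a partial sum -/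
noncomputable def sj {n : ℕ} (x : Fin n → ℝ) : ℝ :=
  Finset.univ.sup' Finset.univ_nonempty (fun k : Fin (n + 1) =>
    |∑ l : Fin n, if l.val < k.val then x l else 0|)

lemma blk_eq {n : ℕ} (x : Fin n → ℝ) {a b : ℕ} (h : a ≤ b) : blk x a b = gs x b - gs x a := by
  unfold blk gs
  rw [← Finset.sum_sub_distrib]
  refine Finset.sum_congr rfl ?_
  intro l _
  by_cases h1 : l.val < a
  · have h2 : l.val < b := lt_of_lt_of_le h1 h
    have h3 : ¬ (a ≤ l.val ∧ l.val < b) := fun hh => absurd hh.1 (not_le.2 h1)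
    rw [if_neg h3, if_pos h2, if_pos h1, sub_self]
  · by_cases h2 : l.val < b
    · rw [if_pos ⟨not_lt.1 h1, h2⟩, if_pos h2, if_neg h1, sub_zero]
    · have h3 : ¬ (a ≤ l.val ∧ l.val < b) := fun hh => h2 hh.2
      rw [if_neg h3, if_neg h2, if_neg h1, sub_zero]

lemma abs_gs_le {n : ℕ} (x : Fin n → ℝ) (q : ℕ) : |gs x q| ≤ sj x := by
  have e : gs x q = ∑ l : Fin n, if l.val < (⟨min q n, by omega⟩ : Fin (n + 1)).val then x l else 0 := by
    unfold gs
    refine Finset.sum_congr rfl ?_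
    intro l _
    have hl := l.isLt
    by_cases h1 : l.val < q
    · rw [if_pos h1, if_pos (lt_min h1 hl)]
    · have h2 : ¬ l.val < min q n := fun hh => h1 (lt_of_lt_of_le hh (min_le_left _ _))
      rw [if_neg h1, if_neg h2]
  rw [e]
  exact Finset.le_sup' (fun k : Fin (n + 1) => |∑ l : Fin n, if l.val < k.val then x l else 0|)
    (Finset.mem_univ (⟨min q n, by omega⟩ : Fin (n + 1)))

lemma sj_nonneg {n : ℕ} (x : Fin n → ℝ) : 0 ≤ sj x := le_trans (abs_nonneg _) (abs_gs_le x 0)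

lemma abs_blk_le {n : ℕ} (x : Fin n → ℝ) {a b : ℕ} (h : a ≤ b) :
    |blk x a b| ≤ gs (fun l => |x l|) b - gs (fun l => |x l|) a := by
  rw [← blk_eq _ h]
  unfold blk
  refine le_trans (Finset.abs_sum_le_sum_abs _ _) (le_of_eq ?_)
  refine Finset.sum_congr rfl ?_
  intro l _
  split_ifs
  · rfl
  · exact abs_zero

lemma gs_abs_le {n : ℕ} (x : Fin n → ℝ) (q : ℕ) : gs (fun l => |x l|) q ≤ ∑ l, |x l| := by
  unfold gs
  refine Finset.sum_le_sum ?_
  intro l _
  split_ifs
  · exact le_rfl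
  · exact abs_nonneg _

lemma gs_abs_nonneg {n : ℕ} (x : Fin n → ℝ) (q : ℕ) : 0 ≤ gs (fun l => |x l|) q := by
  unfold gs
  refine Finset.sum_nonneg ?_
  intro l _
  split_ifs
  · exact abs_nonneg _
  · exact le_rfl

/-- the quadratic variation is at most `2 * |x|_J * |x|_1` -/
lemma qv_le {n : ℕ} (x : Fin n → ℝ) (p : ℕ → ℕ) (hp : Monotone p) (m : ℕ) :
    ∑ k ∈ Finset.range m, blk x (p k) (p (k + 1)) ^ 2 ≤ 2 * sj x * ∑ l, |x l| := by
  have h1 : ∀ k ∈ Finset.range m, blk x (p k) (p (k + 1)) ^ 2 ≤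
      2 * sj x * (gs (fun l => |x l|) (p (k + 1)) - gs (fun l => |x l|) (p k)) := by
    intro k _
    have hk : p k ≤ p (k + 1) := hp (Nat.le_succ k)
    have ha := abs_blk_le x hk
    have hb : |blk x (p k) (p (k + 1))| ≤ 2 * sj x := by
      rw [blk_eq x hk]
      have := abs_sub (gs x (p (k + 1))) (gs x (p k))
      have h2 := abs_gs_le x (p (k + 1))
      have h3 := abs_gs_le x (p k)
      linarith
    calc blk x (p k) (p (k + 1)) ^ 2 = |blk x (p k) (p (k + 1))| * |blk x (p k) (p (k + 1))| := by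
          rw [← sq, sq_abs]
      _ ≤ 2 * sj x * (gs (fun l => |x l|) (p (k + 1)) - gs (fun l => |x l|) (p k)) :=
          mul_le_mul hb ha (abs_nonneg _) (by have := sj_nonneg x; linarith)
  refine le_trans (Finset.sum_le_sum h1) ?_
  rw [← Finset.mul_sum, Finset.sum_range_sub (fun k => gs (fun l => |x l|) (p k)) m]
  refine mul_le_mul_of_nonneg_left ?_ (by have := sj_nonneg x; linarith)
  have h2 := gs_abs_le x (p m)
  have h3 := gs_abs_nonneg x (p 0)
  linarith

lemma two_mul_le (lam c J L : ℝ) (hc : lam * c = 1) (hc0 : 0 ≤ c) :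
    2 * J * L ≤ lam * J ^ 2 + c * L ^ 2 := by
  have h : lam * J ^ 2 + c * L ^ 2 - 2 * J * L = c * (lam * J - L) ^ 2 := by
    linear_combination (-(lam * J ^ 2 - 2 * J * L)) * hc
  have h2 : 0 ≤ c * (lam * J - L) ^ 2 := mul_nonneg hc0 (sq_nonneg _)
  linarith

lemma mat_pow_nonneg {S : Type} [Fintype S] [DecidableEq S] (P : Matrix S S ℝ)
    (h : ∀ i j, 0 ≤ P i j) (t : ℕ) : ∀ i j, 0 ≤ (P ^ t) i j := by
  induction t with
  | zero =>
    intro i j
    rw [pow_zero, Matrix.one_apply]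
    split_ifs <;> norm_num
  | succ t ih =>
    intro i j
    rw [pow_succ, Matrix.mul_apply]
    exact Finset.sum_nonneg (fun k _ => mul_nonneg (ih i k) (h k j))

/-- The summing operators, viewed as operators from `l_1^n` into James' space (quadratic variation
norm of the partial sums), have the polynomial rate `t^(23/12)`, uniformly in `n`.  The families of
consecutive intervals `[p k, p (k+1))`, `k < m`, may depend on the two end points of the path, so the
left side is the expectation of the square of the James norm. -/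
theorem james_rate5 : ∀ t : ℕ, 1 ≤ t →
    ∀ (n : ℕ) (S : Type) [Fintype S] [DecidableEq S] (μ : S → ℝ) (P : Matrix S S ℝ),
      (∀ i, 0 ≤ μ i) → ∑ i, μ i = 1 → (∀ i j, 0 ≤ P i j) → (∀ i, ∑ j, P i j = 1) →
      (∀ i j, μ i * P i j = μ j * P j i) → ∀ f : S → Fin n → ℝ,
      ∀ (m : S → S → ℕ) (p : S → S → ℕ → ℕ), (∀ i j, Monotone (p i j)) →
        ∑ i, ∑ j, μ i * (P ^ t) i j *
            (∑ k ∈ Finset.range (m i j),
              (∑ l : Fin n, if p i j k ≤ l.val ∧ l.val < p i j (k + 1)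
                then f j l - f i l else 0) ^ 2) ≤
          25 * (t : ℝ) ^ (23 / 12 : ℝ) *
            ∑ i, ∑ j, μ i * P i j * (∑ l : Fin n, |f j l - f i l|) ^ 2 := by
  intro t ht n S _ _ μ P h0 h1 h2 h3 h4 f m p hp
  have hA := Vale.Agent.P125.Poly.plain58 t ht n S μ P h0 h1 h2 h3 h4 f
  have hB : ∑ i, ∑ j, μ i * (P ^ t) i j * (∑ l : Fin n, |f j l - f i l|) ^ 2 ≤
      (t : ℝ) ^ 2 * ∑ i, ∑ j, μ i * P i j * (∑ l : Fin n, |f j l - f i l|) ^ 2 := by
    have h := TS.hFun_triv (PiLp 1 (fun _ : Fin n => ℝ)) t S μ P ⟨h0, h1, h2, h3, h4⟩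
      (fun s => WithLp.toLp 1 (f s))
    have e : ∀ i j : S, ‖WithLp.toLp 1 (f j) - WithLp.toLp 1 (f i)‖ = ∑ l, |f j l - f i l| := by
      intro i j
      rw [PiLp.norm_eq_of_L1]
      rfl
    simp only [e] at h
    exact h
  set E1 : ℝ := ∑ i, ∑ j, μ i * P i j * (∑ l : Fin n, |f j l - f i l|) ^ 2 with hE1
  have htR : (0 : ℝ) < (t : ℝ) := by exact_mod_cast ht
  set lam : ℝ := (t : ℝ) ^ (1 / 12 : ℝ) with hlam
  set c : ℝ := (t : ℝ) ^ (-(1 / 12) : ℝ) with hc
  have hlc : lam * c = 1 := by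
    rw [hlam, hc, ← Real.rpow_add htR]
    norm_num
  have hc0 : 0 ≤ c := Real.rpow_nonneg htR.le _
  have hl0 : 0 ≤ lam := Real.rpow_nonneg htR.le _
  have hw : ∀ i j, 0 ≤ μ i * (P ^ t) i j := fun i j => mul_nonneg (h0 i) (mat_pow_nonneg P h2 t i j)
  have hpt : ∀ i j, μ i * (P ^ t) i j *
      (∑ k ∈ Finset.range (m i j),
        (∑ l : Fin n, if p i j k ≤ l.val ∧ l.val < p i j (k + 1) then f j l - f i l else 0) ^ 2) ≤
      lam * (μ i * (P ^ t) i j * (Finset.univ.sup' Finset.univ_nonempty (fun k : Fin (n + 1) =>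
              |∑ l : Fin n, if l.val < k.val then f j l - f i l else 0|)) ^ 2) +
      c * (μ i * (P ^ t) i j * (∑ l : Fin n, |f j l - f i l|) ^ 2) := by
    intro i j
    have q1 := qv_le (fun l => f j l - f i l) (p i j) (hp i j) (m i j)
    have q2 := two_mul_le lam c (sj (fun l => f j l - f i l)) (∑ l : Fin n, |f j l - f i l|) hlc hc0
    have q3 := mul_le_mul_of_nonneg_left (le_trans q1 q2) (hw i j)
    unfold blk sj at q3
    calc _ ≤ _ := q3
      _ = _ := by ring
  have hsum := Finset.sum_le_sum (fun i (_ : i ∈ Finset.univ) =>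
    Finset.sum_le_sum (fun j (_ : j ∈ Finset.univ) => hpt i j))
  refine le_trans hsum ?_
  simp only [Finset.sum_add_distrib, ← Finset.mul_sum]
  have e1 : lam * (24 * (t : ℝ) ^ (11 / 6 : ℝ) * E1) = 24 * (t : ℝ) ^ (23 / 12 : ℝ) * E1 := by
    have : lam * (t : ℝ) ^ (11 / 6 : ℝ) = (t : ℝ) ^ (23 / 12 : ℝ) := by
      rw [hlam, ← Real.rpow_add htR]
      norm_num
    calc lam * (24 * (t : ℝ) ^ (11 / 6 : ℝ) * E1) = 24 * (lam * (t : ℝ) ^ (11 / 6 : ℝ)) * E1 := by ring
      _ = _ := by rw [this]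
  have e2 : c * ((t : ℝ) ^ 2 * E1) = (t : ℝ) ^ (23 / 12 : ℝ) * E1 := by
    have : c * (t : ℝ) ^ 2 = (t : ℝ) ^ (23 / 12 : ℝ) := by
      rw [hc, ← Real.rpow_two, ← Real.rpow_add htR]
      norm_num
    rw [← mul_assoc, this]
  have f1 := mul_le_mul_of_nonneg_left hA hl0
  have f2 := mul_le_mul_of_nonneg_left hB hc0
  rw [e1] at f1
  rw [e2] at f2
  linarith

end Vale.Agent.P125.V2
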